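import Vale.Agent.P329.F.C0

namespace Vale.Agent.P329

variable {A : Type}

/-- `u` and `v` have the same two-sided contexts in `L`. -/
def SynEq (L : Language A) (u v : List A) : Prop :=
  ∀ x y : List A, x ++ u ++ y ∈ L ↔ x ++ v ++ y ∈ L

/-- The bodies of the outermost stars of an expression. -/
def GRegex.bodies : GRegex A → List (GRegex A)
  | .zero => []
  | .one => []
  | .letter _ => []
  | .union P Q => P.bodies ++ Q.bodies
  | .concat P Q => P.bodies ++ Q.bodies
  | .compl P => P.bodies
  | .star P => [P]

/-- High powers of `u` can be pumped by one in every context. -/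
def Stab (L : Language A) (u : List A) : Prop :=
  ∃ N : ℕ, ∀ n, N ≤ n → ∀ x y : List A, x ++ rep n u ++ y ∈ L ↔ x ++ rep (n + 1) u ++ y ∈ L

/-- Same contexts in the star of every language of the list. -/
def SynAll (Ks : List (GRegex A)) (u v : List A) : Prop :=
  ∀ K ∈ Ks, SynEq (KStar.kstar K.lang) u v

end Vale.Agent.P329
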