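import Vale.Agent.P329.T.Defs

namespace Vale.Agent.P329

variable {A : Type}

/-- R1a. Base cases.  Use `Language.IsRegular.of_finite_range_leftQuotient`: the left quotients of
a language all of whose words have length at most one are among finitely many explicit sets, or
build small automata by hand. -/
theorem isRegular_zero : (0 : Language A).IsRegular := by
  apply Language.IsRegular.of_finite_range_leftQuotient
  refine Set.Finite.subset (Set.finite_singleton (0 : Language A)) ?_
  rintro _ ⟨x, rfl⟩
  rw [Set.mem_singleton_iff]
  ext y
  simp [Language.mem_leftQuotient]

theorem isRegular_one : (1 : Language A).IsRegular := by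
  apply Language.IsRegular.of_finite_range_leftQuotient
  refine Set.Finite.subset (Set.toFinite ({0, 1} : Set (Language A))) ?_
  rintro _ ⟨x, rfl⟩
  rcases x with _ | ⟨a, x⟩
  · right
    rw [Set.mem_singleton_iff]
    ext y
    simp [Language.mem_leftQuotient]
  · left
    ext y
    simp [Language.mem_leftQuotient, Language.mem_one]

theorem isRegular_letter (a : A) : ({[a]} : Language A).IsRegular := by
  apply Language.IsRegular.of_finite_range_leftQuotient
  refine Set.Finite.subset (Set.toFinite ({0, 1, {[a]}} : Set (Language A))) ?_
  rintro _ ⟨x, rfl⟩
  rcases x with _ | ⟨b, x⟩
  · right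
    right
    rw [Set.mem_singleton_iff]
    ext y
    simp [Language.mem_leftQuotient]
  · by_cases h : b = a ∧ x = []
    · obtain ⟨rfl, rfl⟩ := h
      right
      left
      ext y
      rw [Language.mem_leftQuotient, Language.mem_one]
      constructor
      · intro h
        have h' : [b] ++ y = [b] := h
        simpa using h'
      · rintro rfl
        exact (rfl : [b] ++ [] = [b])
    · left
      ext y
      rw [Language.mem_leftQuotient]
      constructor
      · intro h1
        exfalso
        have h' : b :: x ++ y = [a] := h1
        simp at h'
        exact h ⟨h'.1, h'.2.1⟩
      · intro h1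
        exact absurd h1 (Language.notMem_zero y)

end Vale.Agent.P329
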