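import Vale.Agent.P329.T.Defs

namespace Vale.Agent.P329

variable {A : Type}

/-- R1b-1. Left quotients of a product (`List.append_eq_append_iff`). -/
theorem leftQuotient_mul (L₁ L₂ : Language A) (x : List A) :
    (L₁ * L₂).leftQuotient x = L₁.leftQuotient x * L₂ ⊔
      sSup {R | ∃ x₁ x₂, x = x₁ ++ x₂ ∧ x₁ ∈ L₁ ∧ R = L₂.leftQuotient x₂} := by
  ext y
  have hR : y ∈ (L₁.leftQuotient x * L₂ ⊔
      sSup {R | ∃ x₁ x₂, x = x₁ ++ x₂ ∧ x₁ ∈ L₁ ∧ R = L₂.leftQuotient x₂} : Language A) ↔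
      y ∈ L₁.leftQuotient x * L₂ ∨
        ∃ R ∈ {R : Language A | ∃ x₁ x₂, x = x₁ ++ x₂ ∧ x₁ ∈ L₁ ∧ R = L₂.leftQuotient x₂}, y ∈ R := by
    exact Iff.rfl
  rw [hR, Language.mem_leftQuotient, Language.mem_mul, Language.mem_mul]
  constructor
  · rintro ⟨a, ha, b, hb, hab⟩
    rcases List.append_eq_append_iff.1 hab with ⟨c, h1, h2⟩ | ⟨c, h1, h2⟩
    · -- x = a ++ c, b = c ++ y
      right
      refine ⟨L₂.leftQuotient c, ⟨a, c, h1, ha, rfl⟩, ?_⟩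
      rw [Language.mem_leftQuotient, ← h2]
      exact hb
    · -- a = x ++ c, y = c ++ b
      left
      refine ⟨c, ?_, b, hb, h2.symm⟩
      rw [Language.mem_leftQuotient, ← h1]
      exact ha
  · rintro (⟨c, hc, b, hb, hcb⟩ | ⟨R, ⟨x₁, x₂, hx, hx₁, rfl⟩, hy⟩)
    · refine ⟨x ++ c, hc, b, hb, ?_⟩
      rw [List.append_assoc, hcb]
    · refine ⟨x₁, hx₁, x₂ ++ y, hy, ?_⟩
      rw [hx, List.append_assoc]

/-- R1b-2. Myhill-Nerode: the range of the left quotients of `L₁ * L₂` is contained in the image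
of the finite set `range (leftQuotient L₁) ×ˢ powerset (range (leftQuotient L₂))` under
`(Q, 𝒮) ↦ Q * L₂ ⊔ sSup 𝒮` (`Set.Finite.finite_subsets`, `Set.Finite.prod`, `Set.Finite.image`,
`Set.Finite.subset`). -/
theorem isRegular_mul {L₁ L₂ : Language A} (h₁ : L₁.IsRegular) (h₂ : L₂.IsRegular) :
    (L₁ * L₂).IsRegular := by
  apply Language.IsRegular.of_finite_range_leftQuotient
  have f₁ := h₁.finite_range_leftQuotient
  have f₂ := h₂.finite_range_leftQuotient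
  have f₃ : {𝒮 : Set (Language A) | 𝒮 ⊆ Set.range L₂.leftQuotient}.Finite := f₂.finite_subsets
  refine ((f₁.prod f₃).image (fun p : Language A × Set (Language A) => p.1 * L₂ ⊔ sSup p.2)).subset ?_
  rintro _ ⟨x, rfl⟩
  refine ⟨(L₁.leftQuotient x,
    {R | ∃ x₁ x₂, x = x₁ ++ x₂ ∧ x₁ ∈ L₁ ∧ R = L₂.leftQuotient x₂}), ⟨⟨x, rfl⟩, ?_⟩, ?_⟩
  · rintro R ⟨x₁, x₂, -, -, rfl⟩
    exact ⟨x₂, rfl⟩
  · exact (leftQuotient_mul L₁ L₂ x).symm

end Vale.Agent.P329
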