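import Vale.Agent.P329.T.Defs

namespace Vale.Agent.P329

variable {A : Type}

private theorem cons_mem_kstar_aux (L : Language A) {w c : List A} (hw : w ∈ L)
    (hc : c ∈ KStar.kstar L) : w ++ c ∈ KStar.kstar L := by
  obtain ⟨T, rfl, hT⟩ := Language.mem_kstar.1 hc
  refine Language.mem_kstar.2 ⟨w :: T, by simp, ?_⟩
  intro z hz
  rcases List.mem_cons.1 hz with rfl | hz
  · exact hw
  · exact hT z hz

private theorem append_mem_kstar_aux (L : Language A) {a c : List A} (ha : a ∈ KStar.kstar L)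
    (hc : c ∈ KStar.kstar L) : a ++ c ∈ KStar.kstar L := by
  obtain ⟨S, rfl, hS⟩ := Language.mem_kstar.1 ha
  obtain ⟨T, rfl, hT⟩ := Language.mem_kstar.1 hc
  refine Language.mem_kstar.2 ⟨S ++ T, by simp, ?_⟩
  intro z hz
  rcases List.mem_append.1 hz with hz | hz
  · exact hS z hz
  · exact hT z hz

/-- R1c-1. A factorization of `x ++ y` into words of `L`, cut at the end of `x`.  From
`Language.mem_kstar`, induction on the list of factors generalizing `x`
(`List.append_eq_append_iff` on the first factor). -/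
theorem kstar_split (L : Language A) (x y : List A) (h : x ++ y ∈ KStar.kstar L) :
    (x ∈ KStar.kstar L ∧ y ∈ KStar.kstar L) ∨
      ∃ x₁ x₂ y₁ y₂, x = x₁ ++ x₂ ∧ y = y₁ ++ y₂ ∧ x₁ ∈ KStar.kstar L ∧ x₂ ++ y₁ ∈ L ∧
        y₂ ∈ KStar.kstar L := by
  obtain ⟨S, hS, hmem⟩ := Language.mem_kstar.1 h
  clear h
  induction S generalizing x with
  | nil =>
    simp only [List.flatten_nil, List.append_eq_nil_iff] at hS
    obtain ⟨rfl, rfl⟩ := hS
    exact Or.inl ⟨Language.nil_mem_kstar L, Language.nil_mem_kstar L⟩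
  | cons w S ih =>
    rw [List.flatten_cons, List.append_eq_append_iff] at hS
    have hw : w ∈ L := hmem w (List.mem_cons_self)
    have hS' : ∀ z ∈ S, z ∈ L := fun z hz => hmem z (List.mem_cons_of_mem _ hz)
    rcases hS with ⟨a', h1, h2⟩ | ⟨c', h1, h2⟩
    · right
      refine ⟨[], x, a', S.flatten, by simp, h2, Language.nil_mem_kstar L, ?_,
        Language.join_mem_kstar hS'⟩
      rw [← h1]
      exact hw
    · rcases ih c' h2.symm hS' with ⟨h3, h4⟩ | ⟨x₁, x₂, y₁, y₂, h3, h4, h5, h6, h7⟩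
      · left
        refine ⟨?_, h4⟩
        rw [h1]
        exact cons_mem_kstar_aux L hw h3
      · right
        refine ⟨w ++ x₁, x₂, y₁, y₂, ?_, h4, cons_mem_kstar_aux L hw h5, h6, h7⟩
        rw [h1, h3, List.append_assoc]

/-- R1c-2. -/
theorem leftQuotient_kstar (L : Language A) (x : List A) :
    (KStar.kstar L).leftQuotient x =
      sSup {R | ∃ x₁ x₂, x = x₁ ++ x₂ ∧ x₁ ∈ KStar.kstar L ∧ R = L.leftQuotient x₂} *
        KStar.kstar L ⊔ {y | x ∈ KStar.kstar L ∧ y ∈ KStar.kstar L} := by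
  ext y
  rw [Language.mem_leftQuotient]
  constructor
  · intro h
    rcases kstar_split L x y h with ⟨h1, h2⟩ | ⟨x₁, x₂, y₁, y₂, h3, h4, h5, h6, h7⟩
    · exact Or.inr ⟨h1, h2⟩
    · left
      refine Language.mem_mul.2 ⟨y₁, ?_, y₂, h7, h4.symm⟩
      exact Set.mem_sUnion.2 ⟨L.leftQuotient x₂, ⟨x₁, x₂, h3, h5, rfl⟩, h6⟩
  · rintro (h | ⟨h1, h2⟩)
    · obtain ⟨y₁, hy₁, y₂, hy₂, rfl⟩ := Language.mem_mul.1 h
      obtain ⟨R, ⟨x₁, x₂, h3, h5, rfl⟩, h6⟩ := Set.mem_sUnion.1 hy₁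
      have h6' : x₂ ++ y₁ ∈ L := h6
      have : x ++ (y₁ ++ y₂) = x₁ ++ ((x₂ ++ y₁) ++ y₂) := by
        rw [h3]; simp [List.append_assoc]
      rw [this]
      exact append_mem_kstar_aux L h5 (cons_mem_kstar_aux L h6' hy₂)
    · exact append_mem_kstar_aux L h1 h2

/-- R1c-3. Myhill-Nerode as in `isRegular_mul`: the left quotients of the star are of the form
`sSup 𝒮 * L∗ ⊔ T` with `𝒮 ⊆ range (leftQuotient L)` and `T ∈ {⊥, L∗}`. -/
theorem isRegular_kstar {L : Language A} (h : L.IsRegular) : (KStar.kstar L).IsRegular := by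
  apply Language.IsRegular.of_finite_range_leftQuotient
  have hfin := h.finite_range_leftQuotient
  have hfin2 : ({b | b ⊆ Set.range L.leftQuotient} ×ˢ
      ({⊥, KStar.kstar L} : Set (Language A))).Finite :=
    hfin.finite_subsets.prod (Set.toFinite _)
  refine (hfin2.image (fun p : Set (Language A) × Language A =>
    sSup p.1 * KStar.kstar L ⊔ p.2)).subset ?_
  rintro _ ⟨x, rfl⟩
  rw [leftQuotient_kstar]
  by_cases hx : x ∈ KStar.kstar L
  · have hT : ({y | x ∈ KStar.kstar L ∧ y ∈ KStar.kstar L} : Language A) = KStar.kstar L := by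
      ext y
      constructor
      · intro hy; exact hy.2
      · intro hy; exact ⟨hx, hy⟩
    rw [hT]
    refine ⟨({R | ∃ x₁ x₂, x = x₁ ++ x₂ ∧ x₁ ∈ KStar.kstar L ∧ R = L.leftQuotient x₂},
      KStar.kstar L), ⟨?_, by simp⟩, rfl⟩
    rintro R ⟨x₁, x₂, -, -, rfl⟩
    exact ⟨x₂, rfl⟩
  · have hT : ({y | x ∈ KStar.kstar L ∧ y ∈ KStar.kstar L} : Language A) = ⊥ := by
      ext y
      constructor
      · intro hy; exact absurd hy.1 hx
      · intro hy; exact absurd hy (Set.notMem_empty y)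
    rw [hT]
    refine ⟨({R | ∃ x₁ x₂, x = x₁ ++ x₂ ∧ x₁ ∈ KStar.kstar L ∧ R = L.leftQuotient x₂},
      ⊥), ⟨?_, by simp⟩, rfl⟩
    rintro R ⟨x₁, x₂, -, -, rfl⟩
    exact ⟨x₂, rfl⟩

end Vale.Agent.P329
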