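import Vale.Agent.P329.T.R1a
import Vale.Agent.P329.T.R1b
import Vale.Agent.P329.T.R1c

namespace Vale.Agent.P329

variable {A : Type}

/-- R1d. Induction on `P` (`Language.IsRegular.add`, `Language.IsRegular.compl`). -/
theorem regex_isRegular (P : GRegex A) : P.lang.IsRegular := by
  induction P with
  | zero => exact isRegular_zero
  | one => exact isRegular_one
  | letter a => exact isRegular_letter a
  | union P Q hP hQ => exact hP.add hQ
  | concat P Q hP hQ => exact isRegular_mul hP hQ
  | compl P hP => exact hP.compl
  | star P hP => exact isRegular_kstar hP

end Vale.Agent.P329
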