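import Vale.Agent.P329.T.Defs

namespace Vale.Agent.P329

variable {A : Type}

private lemma cons_mem_mul63 (L₁ L₂ : Language A) (a : A) (w : List A) :
    a :: w ∈ L₁ * L₂ ↔
      (∃ w₁ w₂, w = w₁ ++ w₂ ∧ a :: w₁ ∈ L₁ ∧ w₂ ∈ L₂) ∨ ([] ∈ L₁ ∧ a :: w ∈ L₂) := by
  rw [Language.mem_mul]
  constructor
  · rintro ⟨s, hs, t, ht, he⟩
    cases s with
    | nil =>
      right
      rw [List.nil_append] at he
      exact ⟨hs, he ▸ ht⟩
    | cons b s' =>
      left
      rw [List.cons_append, List.cons.injEq] at he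
      obtain ⟨rfl, rfl⟩ := he
      exact ⟨s', t, rfl, hs, ht⟩
  · rintro (⟨w₁, w₂, rfl, h1, h2⟩ | ⟨h1, h2⟩)
    · exact ⟨a :: w₁, h1, w₂, h2, rfl⟩
    · exact ⟨[], h1, a :: w, h2, rfl⟩

private lemma cons_mem_kstar63 (L : Language A) (a : A) (w : List A) :
    a :: w ∈ KStar.kstar L ↔ ∃ w₁ w₂, w = w₁ ++ w₂ ∧ a :: w₁ ∈ L ∧ w₂ ∈ KStar.kstar L := by
  constructor
  · intro h
    rw [Language.mem_kstar_iff_exists_nonempty] at h
    obtain ⟨S, hS, hall⟩ := h
    cases S with
    | nil => simp at hS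
    | cons s S' =>
      have hs := hall s (List.mem_cons_self)
      cases s with
      | nil => exact absurd rfl hs.2
      | cons b s' =>
        rw [List.flatten_cons, List.cons_append, List.cons.injEq] at hS
        obtain ⟨rfl, rfl⟩ := hS
        refine ⟨s', S'.flatten, rfl, hs.1, ?_⟩
        rw [Language.mem_kstar]
        exact ⟨S', rfl, fun y hy => (hall y (List.mem_cons_of_mem _ hy)).1⟩
  · rintro ⟨w₁, w₂, rfl, h1, h2⟩
    rw [Language.mem_kstar] at h2 ⊢
    obtain ⟨S, rfl, hS⟩ := h2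
    refine ⟨(a :: w₁) :: S, by simp, ?_⟩
    intro y hy
    rcases List.mem_cons.1 hy with rfl | hy
    · exact h1
    · exact hS y hy

/-- R2a. Left derivative by a letter does not increase the star height.  Induction on `P`:
zero, one: `zero`; letter `b`: `one` if `b = a`, else `zero`; union, complement: componentwise;
concat `P Q`: `(dP) Q`, plus `dQ` if `[] ∈ P.lang`; star `P`: `(dP) (star P)`
(`a :: w ∈ L∗ ↔ ∃ w₁ w₂, w = w₁ ++ w₂ ∧ a :: w₁ ∈ L ∧ w₂ ∈ L∗`, from
`Language.kstar_def_nonempty` or `Language.mem_kstar`). -/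
theorem exists_left_deriv (P : GRegex A) (a : A) :
    ∃ P' : GRegex A, P'.sh ≤ P.sh ∧ ∀ w, w ∈ P'.lang ↔ a :: w ∈ P.lang := by
  classical
  induction P with
  | zero =>
    refine ⟨.zero, le_refl _, fun w => ?_⟩
    simp only [GRegex.lang]
    exact ⟨fun h => absurd h (Language.notMem_zero _), fun h => absurd h (Language.notMem_zero _)⟩
  | one =>
    refine ⟨.zero, le_refl _, fun w => ?_⟩
    simp only [GRegex.lang]
    constructor
    · intro h
      exact absurd h (Language.notMem_zero _)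
    · intro h
      rw [Language.mem_one] at h
      exact absurd h (List.cons_ne_nil _ _)
  | letter b =>
    by_cases h : b = a
    · subst h
      refine ⟨.one, le_refl _, fun w => ?_⟩
      simp only [GRegex.lang]
      rw [Language.mem_one]
      constructor
      · rintro rfl
        exact Set.mem_singleton _
      · intro hw
        have := Set.mem_singleton_iff.1 hw
        rw [List.cons.injEq] at this
        exact this.2
    · refine ⟨.zero, le_refl _, fun w => ?_⟩
      simp only [GRegex.lang]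
      constructor
      · intro hw
        exact absurd hw (Language.notMem_zero _)
      · intro hw
        have := Set.mem_singleton_iff.1 hw
        rw [List.cons.injEq] at this
        exact absurd this.1.symm h
  | union P Q ihP ihQ =>
    obtain ⟨P', hP, hP'⟩ := ihP
    obtain ⟨Q', hQ, hQ'⟩ := ihQ
    refine ⟨.union P' Q', max_le_max hP hQ, fun w => ?_⟩
    simp only [GRegex.lang, Language.mem_add, hP', hQ']
  | compl P ih =>
    obtain ⟨P', hP, hP'⟩ := ih
    refine ⟨.compl P', hP, fun w => ?_⟩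
    simp only [GRegex.lang]
    exact not_congr (hP' w)
  | concat P Q ihP ihQ =>
    obtain ⟨P', hP, hP'⟩ := ihP
    obtain ⟨Q', hQ, hQ'⟩ := ihQ
    by_cases hnil : [] ∈ P.lang
    · refine ⟨.union (.concat P' Q) Q', ?_, fun w => ?_⟩
      · simp only [GRegex.sh]
        omega
      · simp only [GRegex.lang, Language.mem_add]
        rw [cons_mem_mul63, Language.mem_mul, hQ']
        constructor
        · rintro (⟨s, hs, t, ht, rfl⟩ | h)
          · exact Or.inl ⟨s, t, rfl, (hP' s).1 hs, ht⟩
          · exact Or.inr ⟨hnil, h⟩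
        · rintro (⟨w₁, w₂, rfl, h1, h2⟩ | ⟨_, h⟩)
          · exact Or.inl ⟨w₁, (hP' w₁).2 h1, w₂, h2, rfl⟩
          · exact Or.inr h
    · refine ⟨.concat P' Q, ?_, fun w => ?_⟩
      · simp only [GRegex.sh]
        omega
      · simp only [GRegex.lang]
        rw [cons_mem_mul63, Language.mem_mul]
        constructor
        · rintro ⟨s, hs, t, ht, rfl⟩
          exact Or.inl ⟨s, t, rfl, (hP' s).1 hs, ht⟩
        · rintro (⟨w₁, w₂, rfl, h1, h2⟩ | ⟨h, _⟩)
          · exact ⟨w₁, (hP' w₁).2 h1, w₂, h2, rfl⟩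
          · exact absurd h hnil
  | star P ih =>
    obtain ⟨P', hP, hP'⟩ := ih
    refine ⟨.concat P' (.star P), ?_, fun w => ?_⟩
    · simp only [GRegex.sh]
      omega
    · simp only [GRegex.lang]
      rw [cons_mem_kstar63, Language.mem_mul]
      constructor
      · rintro ⟨s, hs, t, ht, rfl⟩
        exact ⟨s, t, rfl, (hP' s).1 hs, ht⟩
      · rintro ⟨w₁, w₂, rfl, h1, h2⟩
        exact ⟨w₁, (hP' w₁).2 h1, w₂, h2, rfl⟩

end Vale.Agent.P329
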