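import Vale.Agent.P329.T.Defs

namespace Vale.Agent.P329

variable {A : Type}

private theorem kstar_snoc_aux (L : Language A) (w : List A) (a : A) :
    w ++ [a] ∈ KStar.kstar L ↔
      ∃ w₁ w₂, w = w₁ ++ w₂ ∧ w₁ ∈ KStar.kstar L ∧ w₂ ++ [a] ∈ L := by
  constructor
  · intro h
    obtain ⟨S, hS, hmem⟩ := Language.mem_kstar_iff_exists_nonempty.1 h
    rcases List.eq_nil_or_concat S with rfl | ⟨S', z, rfl⟩
    · simp at hS
    · have hz := hmem z (by simp)
      rcases List.eq_nil_or_concat z with rfl | ⟨z', c, rfl⟩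
      · exact absurd rfl hz.2
      · have e : w ++ [a] = (S'.flatten ++ z') ++ [c] := by
          rw [hS]; simp
        obtain ⟨e1, e2⟩ := List.append_inj' e (by simp)
        have e3 : a = c := by simpa using e2
        subst e3
        refine ⟨S'.flatten, z', e1, Language.join_mem_kstar ?_, ?_⟩
        · intro y hy
          exact (hmem y (by simp [hy])).1
        · simpa using hz.1
  · rintro ⟨w₁, w₂, rfl, h1, h2⟩
    obtain ⟨T, rfl, hT⟩ := Language.mem_kstar.1 h1
    refine Language.mem_kstar.2 ⟨T ++ [w₂ ++ [a]], by simp, ?_⟩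
    intro y hy
    rcases List.mem_append.1 hy with hy | hy
    · exact hT y hy
    · rw [List.mem_singleton] at hy
      rw [hy]
      exact h2

private theorem mul_snoc_aux (L₁ L₂ : Language A) (w : List A) (a : A) :
    w ++ [a] ∈ L₁ * L₂ ↔
      (∃ w₁ w₂, w = w₁ ++ w₂ ∧ w₁ ∈ L₁ ∧ w₂ ++ [a] ∈ L₂) ∨ (w ++ [a] ∈ L₁ ∧ [] ∈ L₂) := by
  constructor
  · intro h
    obtain ⟨u, hu, v, hv, e⟩ := Language.mem_mul.1 h
    rcases List.eq_nil_or_concat v with rfl | ⟨v', c, rfl⟩
    · right
      rw [List.append_nil] at e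
      rw [← e]
      exact ⟨hu, hv⟩
    · left
      have e' : (u ++ v') ++ [c] = w ++ [a] := by
        rw [← e]; simp
      obtain ⟨e1, e2⟩ := List.append_inj' e' (by simp)
      have e3 : c = a := by simpa using e2
      subst e3
      exact ⟨u, v', e1.symm, hu, by simpa using hv⟩
  · rintro (⟨w₁, w₂, rfl, h1, h2⟩ | ⟨h1, h2⟩)
    · exact Language.mem_mul.2 ⟨w₁, h1, w₂ ++ [a], h2, by simp⟩
    · exact Language.mem_mul.2 ⟨w ++ [a], h1, [], h2, by simp⟩

/-- R2b. Right derivative by a letter, mirror image of R2a: concat `P Q`: `P (dQ)`, plus `dP` if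
`[] ∈ Q.lang`; star `P`: `(star P) (dP)`. -/
theorem exists_right_deriv (P : GRegex A) (a : A) :
    ∃ P' : GRegex A, P'.sh ≤ P.sh ∧ ∀ w, w ∈ P'.lang ↔ w ++ [a] ∈ P.lang := by
  classical
  induction P with
  | zero =>
    exact ⟨.zero, le_rfl, fun w => Iff.rfl⟩
  | one =>
    refine ⟨.zero, le_rfl, fun w => ?_⟩
    constructor
    · intro h; exact absurd h (Set.notMem_empty w)
    · intro h
      have h' : w ++ [a] = [] := h
      simp at h'
  | letter b =>
    by_cases hb : b = a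
    · refine ⟨.one, le_rfl, fun w => ?_⟩
      constructor
      · intro h
        have h' : w = [] := h
        subst h'
        show [] ++ [a] = [b]
        rw [hb]; rfl
      · intro h
        have h' : w ++ [a] = [b] := h
        show w = []
        cases w with
        | nil => rfl
        | cons c w => simp at h'
    · refine ⟨.zero, le_rfl, fun w => ?_⟩
      constructor
      · intro h; exact absurd h (Set.notMem_empty w)
      · intro h
        have h' : w ++ [a] = [b] := h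
        exfalso
        cases w with
        | nil =>
          simp at h'
          exact hb h'.symm
        | cons c w => simp at h'
  | union P Q ihP ihQ =>
    obtain ⟨P', hP1, hP2⟩ := ihP
    obtain ⟨Q', hQ1, hQ2⟩ := ihQ
    refine ⟨.union P' Q', max_le_max hP1 hQ1, fun w => ?_⟩
    show (w ∈ P'.lang ∨ w ∈ Q'.lang) ↔ (w ++ [a] ∈ P.lang ∨ w ++ [a] ∈ Q.lang)
    rw [hP2, hQ2]
  | concat P Q ihP ihQ =>
    obtain ⟨P', hP1, hP2⟩ := ihP
    obtain ⟨Q', hQ1, hQ2⟩ := ihQ
    by_cases hn : [] ∈ Q.lang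
    · refine ⟨.union (.concat P Q') P', ?_, fun w => ?_⟩
      · show max (max P.sh Q'.sh) P'.sh ≤ max P.sh Q.sh
        omega
      · show (w ∈ P.lang * Q'.lang ∨ w ∈ P'.lang) ↔ w ++ [a] ∈ P.lang * Q.lang
        rw [mul_snoc_aux, hP2, Language.mem_mul]
        constructor
        · rintro (⟨u, hu, v, hv, rfl⟩ | h)
          · exact Or.inl ⟨u, v, rfl, hu, (hQ2 v).1 hv⟩
          · exact Or.inr ⟨h, hn⟩
        · rintro (⟨u, v, rfl, hu, hv⟩ | h)
          · exact Or.inl ⟨u, hu, v, (hQ2 v).2 hv, rfl⟩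
          · exact Or.inr h.1
    · refine ⟨.concat P Q', ?_, fun w => ?_⟩
      · show max P.sh Q'.sh ≤ max P.sh Q.sh
        omega
      · show w ∈ P.lang * Q'.lang ↔ w ++ [a] ∈ P.lang * Q.lang
        rw [mul_snoc_aux, Language.mem_mul]
        constructor
        · rintro ⟨u, hu, v, hv, rfl⟩
          exact Or.inl ⟨u, v, rfl, hu, (hQ2 v).1 hv⟩
        · rintro (⟨u, v, rfl, hu, hv⟩ | h)
          · exact ⟨u, hu, v, (hQ2 v).2 hv, rfl⟩
          · exact absurd h.2 hn
  | compl P ih =>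
    obtain ⟨P', hP1, hP2⟩ := ih
    refine ⟨.compl P', hP1, fun w => ?_⟩
    show ¬ (w ∈ P'.lang) ↔ ¬ (w ++ [a] ∈ P.lang)
    rw [hP2]
  | star P ih =>
    obtain ⟨P', hP1, hP2⟩ := ih
    refine ⟨.concat (.star P) P', ?_, fun w => ?_⟩
    · show max (P.sh + 1) P'.sh ≤ P.sh + 1
      omega
    · show w ∈ KStar.kstar P.lang * P'.lang ↔ w ++ [a] ∈ KStar.kstar P.lang
      rw [kstar_snoc_aux, Language.mem_mul]
      constructor
      · rintro ⟨u, hu, v, hv, rfl⟩
        exact ⟨u, v, rfl, hu, (hP2 v).1 hv⟩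
      · rintro ⟨u, v, rfl, hu, hv⟩
        exact ⟨u, hu, v, (hP2 v).2 hv, rfl⟩

end Vale.Agent.P329
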