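import Vale.Agent.P329.T.R2a
import Vale.Agent.P329.T.R2b

namespace Vale.Agent.P329

variable {A : Type}

/-- R2c. Two-sided quotients by words.  Induction on `x` (from the left, `exists_left_deriv`)
and on `y` (reverse induction `List.reverseRecOn`, `exists_right_deriv`). -/
theorem HT.quotient {k : ℕ} {L : Language A} (h : HT k L) (x y : List A) :
    HT k ({w : List A | x ++ w ++ y ∈ L} : Set (List A)) := by
  have hl : ∀ (x : List A) (L : Language A), HT k L →
      HT k ({w : List A | x ++ w ∈ L} : Set (List A)) := by
    intro x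
    induction x with
    | nil =>
      intro L h
      refine h.of_iff (fun w => ?_)
      show [] ++ w ∈ L ↔ w ∈ L
      rw [List.nil_append]
    | cons a x ih =>
      intro L h
      obtain ⟨P, hP, rfl⟩ := h
      obtain ⟨P', hP', he⟩ := exists_left_deriv P a
      have h1 : HT k P'.lang := ⟨P', hP'.trans hP, rfl⟩
      refine (ih _ h1).of_iff (fun w => ?_)
      show a :: x ++ w ∈ P.lang ↔ x ++ w ∈ P'.lang
      rw [he]
      rfl
  have hr : ∀ (y : List A) (L : Language A), HT k L →
      HT k ({w : List A | w ++ y ∈ L} : Set (List A)) := by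
    intro y
    induction y using List.reverseRecOn with
    | nil =>
      intro L h
      refine h.of_iff (fun w => ?_)
      show w ++ [] ∈ L ↔ w ∈ L
      rw [List.append_nil]
    | append_singleton y a ih =>
      intro L h
      obtain ⟨P, hP, rfl⟩ := h
      obtain ⟨P', hP', he⟩ := exists_right_deriv P a
      have h1 : HT k P'.lang := ⟨P', hP'.trans hP, rfl⟩
      refine (ih _ h1).of_iff (fun w => ?_)
      show w ++ (y ++ [a]) ∈ P.lang ↔ w ++ y ∈ P'.lang
      rw [he, List.append_assoc]
  refine (hl x _ (hr y L h)).of_iff (fun w => ?_)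
  show x ++ w ++ y ∈ L ↔ x ++ w ++ y ∈ L
  rfl

end Vale.Agent.P329
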