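import Vale.Agent.P329.T.Defs

namespace Vale.Agent.P329

variable {A : Type}

/-- A map with finite range has a finite set of representatives. -/
theorem exists_finset_reps {β : Type} (f : List A → β) (h : (Set.range f).Finite) :
    ∃ X : Finset (List A), ∀ x, ∃ x0 ∈ X, f x0 = f x := by
  classical
  refine ⟨h.toFinset.image (fun q => if hq : ∃ x, f x = q then hq.choose else []), fun x => ?_⟩
  have hx : ∃ z, f z = f x := ⟨x, rfl⟩
  refine ⟨hx.choose, ?_, hx.choose_spec⟩
  rw [Finset.mem_image]
  refine ⟨f x, ?_, ?_⟩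
  · rw [Set.Finite.mem_toFinset]
    exact ⟨x, rfl⟩
  · rw [dif_pos hx]

/-- R3. Finitely many contexts suffice for a regular language.  Left contexts: the range of
`L.leftQuotient` is finite, choose one word for every value.  Right contexts: the same for
`L.reverse` (`Language.IsRegular.reverse`); `z ++ y ∈ L ↔ z.reverse ∈ L.reverse.leftQuotient
y.reverse`.  Then `x ++ u ++ y ∈ L ↔ x₀ ++ u ++ y ∈ L ↔ x₀ ++ u ++ y₀ ∈ L`. -/
theorem exists_finite_contexts {L : Language A} (h : L.IsRegular) :
    ∃ X Y : Finset (List A), ∀ u v : List A,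
      (∀ x ∈ X, ∀ y ∈ Y, (x ++ u ++ y ∈ L ↔ x ++ v ++ y ∈ L)) → SynEq L u v := by
  classical
  obtain ⟨X, hX⟩ := exists_finset_reps L.leftQuotient h.finite_range_leftQuotient
  obtain ⟨Y, hY⟩ := exists_finset_reps L.reverse.leftQuotient h.reverse.finite_range_leftQuotient
  have hl : ∀ x x0 : List A, L.leftQuotient x0 = L.leftQuotient x →
      ∀ z, x ++ z ∈ L ↔ x0 ++ z ∈ L := by
    intro x x0 e z
    rw [← Language.mem_leftQuotient, ← Language.mem_leftQuotient, e]
  have hr : ∀ y y0 : List A, L.reverse.leftQuotient y0 = L.reverse.leftQuotient y →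
      ∀ z, z ++ y.reverse ∈ L ↔ z ++ y0.reverse ∈ L := by
    intro y y0 e z
    have h1 : ∀ t : List A, z ++ t.reverse ∈ L ↔ z.reverse ∈ L.reverse.leftQuotient t := by
      intro t
      rw [Language.mem_leftQuotient, Language.mem_reverse, List.reverse_append,
        List.reverse_reverse]
    rw [h1, h1, e]
  refine ⟨X, Y.image List.reverse, fun u v huv x y => ?_⟩
  obtain ⟨x0, hx0, ex⟩ := hX x
  obtain ⟨y0, hy0, ey⟩ := hY y.reverse
  have hy0' : y0.reverse ∈ Y.image List.reverse := Finset.mem_image_of_mem _ hy0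
  have key : ∀ w : List A, x ++ w ++ y ∈ L ↔ x0 ++ w ++ y0.reverse ∈ L := by
    intro w
    have h2 := hr y.reverse y0 ey (x ++ w)
    rw [List.reverse_reverse] at h2
    rw [h2, List.append_assoc, List.append_assoc, hl x x0 ex]
  rw [key u, key v]
  exact huv x0 hx0 _ hy0'

end Vale.Agent.P329
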