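import Vale.Agent.P329.T.R1d
import Vale.Agent.P329.T.R2c
import Vale.Agent.P329.T.R3

namespace Vale.Agent.P329

variable {A : Type}

/-- R4a. One language: `f w = fun p : X × Y => decide (p.1 ++ w ++ p.2 ∈ L)` (classical), with
`X Y` from `exists_finite_contexts`; measurable by `Meas.pi`; each coordinate has fibres
`{w | x ++ w ++ y ∈ L}` or its complement (`HT.quotient`, `HT.compl`). -/
theorem exists_sig_one {L : Language A} (h1 : HT 1 L) (h2 : L.IsRegular) :
    ∃ (X : Type) (_ : Finite X) (f : List A → X), Meas f ∧
      ∀ u v, f u = f v → SynEq L u v := by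
  classical
  obtain ⟨X, Y, hXY⟩ := exists_finite_contexts h2
  refine ⟨(X × Y) → Bool, inferInstance,
    fun w => fun p : X × Y => decide (p.1.1 ++ w ++ p.2.1 ∈ L), ?_, ?_⟩
  · refine Meas.pi (f := fun (p : X × Y) (w : List A) => decide (p.1.1 ++ w ++ p.2.1 ∈ L)) ?_
    intro p b
    have hq := HT.quotient h1 p.1.1 p.2.1
    cases b
    · refine HT.of_iff hq.compl fun w => ?_
      constructor
      · intro hw hmem
        have hw' : decide (p.1.1 ++ w ++ p.2.1 ∈ L) = false := hw
        rw [decide_eq_false_iff_not] at hw'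
        exact hw' hmem
      · intro hw
        have hw' : ¬ (p.1.1 ++ w ++ p.2.1 ∈ L) := hw
        change decide (p.1.1 ++ w ++ p.2.1 ∈ L) = false
        rw [decide_eq_false_iff_not]
        exact hw'
    · refine HT.of_iff hq fun w => ?_
      constructor
      · intro hw
        have hw' : decide (p.1.1 ++ w ++ p.2.1 ∈ L) = true := hw
        rw [decide_eq_true_iff] at hw'
        exact hw'
      · intro hw
        have hw' : p.1.1 ++ w ++ p.2.1 ∈ L := hw
        change decide (p.1.1 ++ w ++ p.2.1 ∈ L) = true
        rw [decide_eq_true_iff]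
        exact hw'
  · intro u v huv
    apply hXY
    intro x hx y hy
    have := congrFun huv (⟨x, hx⟩, ⟨y, hy⟩)
    simp only [decide_eq_decide] at this
    exact this

/-- R4b. Induction on `Ks` with `Meas.prodMk`; `HT 1 (K.lang)∗` by `HT.star` from `K.sh = 0`,
regular by `regex_isRegular (GRegex.star K)`. -/
theorem exists_sig (Ks : List (GRegex A)) (h : ∀ K ∈ Ks, K.sh = 0) :
    ∃ (X : Type) (_ : Finite X) (f : List A → X), Meas f ∧
      ∀ u v, f u = f v → SynAll Ks u v := by
  induction Ks with
  | nil =>
    refine ⟨Unit, inferInstance, fun _ => (), ?_, ?_⟩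
    · intro x
      refine HT.of_iff (HT.top 1) fun w => ?_
      constructor
      · intro _
        trivial
      · intro _
        exact Subsingleton.elim _ _
    · intro u v _ K hK
      simp at hK
  | cons K Ks ih =>
    obtain ⟨X, hX, f, hf, hfs⟩ := ih (fun K' hK' => h K' (List.mem_cons_of_mem _ hK'))
    have hK0 : K.sh = 0 := h K List.mem_cons_self
    have hht : HT 1 (KStar.kstar K.lang) := by
      have : HT 0 K.lang := ⟨K, by omega, rfl⟩
      exact this.star
    have hreg : (KStar.kstar K.lang).IsRegular := regex_isRegular (GRegex.star K)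
    obtain ⟨Y, hY, g, hg, hgs⟩ := exists_sig_one hht hreg
    refine ⟨Y × X, inferInstance, fun w => (g w, f w), hg.prodMk hf, ?_⟩
    intro u v huv K' hK'
    have e1 : g u = g v := congrArg Prod.fst huv
    have e2 : f u = f v := congrArg Prod.snd huv
    rcases List.mem_cons.mp hK' with rfl | hK'
    · exact hgs u v e1
    · exact hfs u v e2 K' hK'

end Vale.Agent.P329
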