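import Vale.Agent.P329.T.T0

namespace Vale.Agent.P329

variable {A : Type}

theorem SynAll.refl (Ks : List (GRegex A)) (u : List A) : SynAll Ks u u :=
  fun _ _ _ _ => Iff.rfl

theorem SynAll.symm {Ks : List (GRegex A)} {u v : List A} (h : SynAll Ks u v) : SynAll Ks v u :=
  fun K hK x y => (h K hK x y).symm

theorem SynAll.trans {Ks : List (GRegex A)} {u v w : List A} (h : SynAll Ks u v)
    (h' : SynAll Ks v w) : SynAll Ks u w :=
  fun K hK x y => (h K hK x y).trans (h' K hK x y)

/-- R5a. -/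
theorem SynAll.append {Ks : List (GRegex A)} {u v u' v' : List A} (h : SynAll Ks u v)
    (h' : SynAll Ks u' v') : SynAll Ks (u ++ u') (v ++ v') := by
  intro K hK x y
  have h1 := h K hK x (u' ++ y)
  have h2 := h' K hK (x ++ v) y
  simp only [List.append_assoc] at h1 h2 ⊢
  exact h1.trans h2

/-- R5b. Idempotent power.  Pigeonhole on `i ↦ f (rep i v)` (`Finite.exists_ne_map_eq_of_infinite`)
gives `i < j` with `SynAll Ks (rep i v) (rep j v)`.  With `p = j - i`:
`SynAll Ks (rep m v) (rep (m + t * p) v)` for `m ≥ i` (append, `rep_add`, induction on `t`).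
Take `k = (i + 1) * p`, `m = k`, `t = i + 1`. -/
theorem exists_idem_pow {Ks : List (GRegex A)} {X : Type} [Finite X] (f : List A → X)
    (hf : ∀ u v, f u = f v → SynAll Ks u v) (v : List A) :
    ∃ k : ℕ, 0 < k ∧ SynAll Ks (rep k v) (rep k v ++ rep k v) := by
  obtain ⟨i0, j0, hne, heq⟩ := Finite.exists_ne_map_eq_of_infinite (fun i : ℕ => f (rep i v))
  have key : ∃ i j : ℕ, i < j ∧ SynAll Ks (rep i v) (rep j v) := by
    rcases lt_or_gt_of_ne hne with hlt | hlt
    · exact ⟨i0, j0, hlt, hf _ _ heq⟩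
    · exact ⟨j0, i0, hlt, hf _ _ heq.symm⟩
  obtain ⟨i, j, hij, hs⟩ := key
  obtain ⟨p, hp, rfl⟩ : ∃ p, 0 < p ∧ j = i + p := ⟨j - i, by omega, by omega⟩
  have step : ∀ m, i ≤ m → SynAll Ks (rep m v) (rep (m + p) v) := by
    intro m hm
    obtain ⟨d, rfl⟩ : ∃ d, m = i + d := ⟨m - i, by omega⟩
    have e : i + d + p = (i + p) + d := by omega
    rw [e, rep_add i d, rep_add (i + p) d]
    exact SynAll.append hs (SynAll.refl _ _)
  have steps : ∀ t m, i ≤ m → SynAll Ks (rep m v) (rep (m + t * p) v) := by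
    intro t
    induction t with
    | zero =>
      intro m _
      simp only [Nat.zero_mul, Nat.add_zero]
      exact SynAll.refl _ _
    | succ t ih =>
      intro m hm
      have e : m + (t + 1) * p = (m + t * p) + p := by ring
      rw [e]
      exact (ih m hm).trans (step _ (by omega))
  refine ⟨(i + 1) * p, Nat.mul_pos (Nat.succ_pos _) hp, ?_⟩
  rw [← rep_add]
  refine steps (i + 1) ((i + 1) * p) ?_
  calc i ≤ (i + 1) * 1 := by omega
    _ ≤ (i + 1) * p := Nat.mul_le_mul_left _ hp

end Vale.Agent.P329
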