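import Vale.Agent.P329.T.R5

namespace Vale.Agent.P329

variable {A : Type}

/-- R6. Equivalent words have the same value.  Take `k` from `exists_idem_pow` for `v`.
`t = u ++ rep (k - 1) v` is equivalent to `rep k v`, so `t ++ t` is equivalent to
`rep k v ++ rep k v`, to `rep k v`, to `t`.  So the values of `t` and of `rep k v` are `1`:
`g_u * g_v ^ (k - 1) = 1` and `g_v ^ k = 1`, hence `g_u = g_v`. -/
theorem value_eq_of_synAll {G : Type} [Group G] (φ : A → G) {Ks : List (GRegex A)}
    {X : Type} [Finite X] (f : List A → X) (hf : ∀ u v, f u = f v → SynAll Ks u v)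
    (hK : ∀ u : List A, SynAll Ks u (u ++ u) → (u.map φ).prod = 1) (u v : List A)
    (h : SynAll Ks u v) : (u.map φ).prod = (v.map φ).prod := by
  obtain ⟨k, hk, hidem⟩ := exists_idem_pow f hf v
  obtain ⟨m, rfl⟩ : ∃ m, k = 1 + m := ⟨k - 1, by omega⟩
  have hv1 : rep 1 v = v := by
    unfold rep
    simp
  have hrep : rep (1 + m) v = v ++ rep m v := by
    rw [rep_add, hv1]
  have ht : SynAll Ks (u ++ rep m v) (rep (1 + m) v) := by
    rw [hrep]
    exact SynAll.append h (SynAll.refl _ _)
  have htt : SynAll Ks (u ++ rep m v) ((u ++ rep m v) ++ (u ++ rep m v)) :=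
    (ht.trans hidem).trans (SynAll.append ht ht).symm
  have h1 := hK _ htt
  have h2 := hK _ hidem
  rw [hrep] at h2
  rw [List.map_append, List.prod_append] at h1 h2
  exact mul_right_cancel (h1.trans h2.symm)

end Vale.Agent.P329
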