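import Vale.Agent.P329.T.T0

namespace Vale.Agent.P329

variable {A : Type}

/-- T6. Let `g` be the value of `u` and `c = Nat.card G`.  With `x = []`, `n = N`,
`y = rep (N * (c - 1)) u` the first word has value `g ^ (N * c) = 1` (`prod_map_rep`,
`pow_card_eq_one'`), so the second one, of value `g ^ (N * c + 1)`, is in `L` too; hence `g = 1`. -/
theorem value_one_of_stab {G : Type} [Group G] [Finite G] (φ : A → G) {L : Language A}
    (hL : ∀ w, w ∈ L ↔ (w.map φ).prod = 1) {u : List A} (h : Stab L u) :
    (u.map φ).prod = 1 := by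
  obtain ⟨N, hN⟩ := h
  have hc : 0 < Nat.card G := Nat.card_pos
  have h1 := hN N (le_refl N) [] (rep (N * (Nat.card G - 1)) u)
  rw [hL, hL] at h1
  simp only [List.nil_append, List.map_append, List.prod_append, prod_map_rep] at h1
  rw [← pow_add, ← pow_add] at h1
  have e1 : N + N * (Nat.card G - 1) = Nat.card G * N := by
    obtain ⟨c, hc'⟩ : ∃ c, Nat.card G = c + 1 := ⟨Nat.card G - 1, by omega⟩
    rw [hc']
    simp only [Nat.add_sub_cancel]
    ring
  have e2 : N + 1 + N * (Nat.card G - 1) = Nat.card G * N + 1 := by omega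
  rw [e1, e2, pow_succ, pow_mul, pow_card_eq_one', one_pow, one_mul] at h1
  exact h1.mp rfl

end Vale.Agent.P329
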