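import Vale.Agent.P329.T.T5
import Vale.Agent.P329.T.T6

namespace Vale.Agent.P329

variable {A : Type}

/-- T7. Necessary condition for star height at most one. -/
theorem criterion_forward {G : Type} [Group G] [Finite G] (φ : A → G)
    (h : ∃ P : GRegex A, P.sh ≤ 1 ∧ ∀ w : List A, w ∈ P.lang ↔ (w.map φ).prod = 1) :
    ∃ Ks : List (GRegex A), (∀ K ∈ Ks, K.sh = 0) ∧
      ∀ u : List A, SynAll Ks u (u ++ u) → (u.map φ).prod = 1 := by
  obtain ⟨P, hP, hL⟩ := h
  exact ⟨P.bodies, bodies_sh P hP, fun u hu => value_one_of_stab φ hL (stab_of_bodies P u hu)⟩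

end Vale.Agent.P329
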