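import Vale.Agent.P329.T.R4
import Vale.Agent.P329.T.R6
import Vale.Agent.P329.T.T7

namespace Vale.Agent.P329

variable {A : Type}

/-- R7. Sufficient condition. -/
theorem criterion_backward {G : Type} [Group G] [Finite G] (φ : A → G)
    (h : ∃ Ks : List (GRegex A), (∀ K ∈ Ks, K.sh = 0) ∧
      ∀ u : List A, SynAll Ks u (u ++ u) → (u.map φ).prod = 1) (S : Set G) :
    HT 1 ({w : List A | (w.map φ).prod ∈ S} : Set (List A)) := by
  obtain ⟨Ks, h0, hK⟩ := h
  obtain ⟨X, hX, f, hf, hsyn⟩ := exists_sig Ks h0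
  have hM : Meas (fun w : List A => (w.map φ).prod) :=
    hf.of_determined fun w w' hw => value_eq_of_synAll φ f hsyn hK w w' (hsyn w w' hw)
  exact hM.mem S

end Vale.Agent.P329
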