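import Vale.Agent.P329.T.Defs

namespace Vale.Agent.P329

variable {A : Type}

/-- T0. Induction on `m` with `rep_succ`. -/
theorem rep_add (m k : ℕ) (u : List A) : rep (m + k) u = rep m u ++ rep k u := by
  unfold rep
  rw [List.replicate_add, List.flatten_append]

/-- T0b. -/
theorem rep_nil (n : ℕ) : rep n ([] : List A) = [] := by
  unfold rep
  induction n with
  | zero => rfl
  | succ n ih => rw [List.replicate_succ, List.flatten_cons, ih, List.nil_append]

/-- T0c. -/
theorem length_rep (n : ℕ) (u : List A) : (rep n u).length = n * u.length := by
  unfold rep
  induction n with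
  | zero => simp
  | succ n ih =>
    rw [List.replicate_succ, List.flatten_cons, List.length_append, ih]
    ring

/-- T0d. -/
theorem prod_map_rep {G : Type} [Monoid G] (φ : A → G) (n : ℕ) (u : List A) :
    ((rep n u).map φ).prod = ((u.map φ).prod) ^ n := by
  unfold rep
  induction n with
  | zero => simp
  | succ n ih =>
    rw [List.replicate_succ, List.flatten_cons, List.map_append, List.prod_append, ih, pow_succ']

end Vale.Agent.P329
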