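import Vale.Agent.P329.T.T0

namespace Vale.Agent.P329

variable {A : Type}

/-- T1a. -/
theorem stab_zero (u : List A) : Stab (0 : Language A) u :=
  ⟨0, fun _ _ _ _ => Iff.rfl⟩

private theorem stab_short_aux (L : Language A) (k : ℕ) (hL : ∀ w ∈ L, w.length < k)
    (u : List A) : Stab L u := by
  by_cases hu : u = []
  · subst hu
    refine ⟨0, fun n _ x y => ?_⟩
    rw [rep_nil, rep_nil]
  · have hlen : 0 < u.length := List.length_pos_iff.2 hu
    refine ⟨k, fun n hn x y => ?_⟩
    constructor
    · intro h
      exfalso
      have := hL _ h
      simp only [List.length_append, length_rep] at this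
      have h2 : n ≤ n * u.length := Nat.le_mul_of_pos_right n hlen
      omega
    · intro h
      exfalso
      have := hL _ h
      simp only [List.length_append, length_rep] at this
      have h2 : n + 1 ≤ (n + 1) * u.length := Nat.le_mul_of_pos_right (n + 1) hlen
      omega

/-- T1b. If `u = []` all powers are `[]`; otherwise for `n ≥ 1` both words are nonempty
(`length_rep`). -/
theorem stab_one (u : List A) : Stab (1 : Language A) u := by
  refine stab_short_aux _ 1 (fun w hw => ?_) u
  have hw' : w = [] := hw
  subst hw'
  simp

/-- T1c. If `u = []` all powers are `[]`; otherwise for `n ≥ 2` both words have length at least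
two. -/
theorem stab_letter (a : A) (u : List A) : Stab ({[a]} : Language A) u := by
  refine stab_short_aux _ 2 (fun w hw => ?_) u
  have hw' : w = [a] := hw
  subst hw'
  simp

end Vale.Agent.P329
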