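import Vale.Agent.P329.T.T0

namespace Vale.Agent.P329

variable {A : Type}

/-- T2a. Take the maximum of the two thresholds. -/
theorem stab_add {L₁ L₂ : Language A} {u : List A} (h₁ : Stab L₁ u) (h₂ : Stab L₂ u) :
    Stab (L₁ + L₂) u := by
  obtain ⟨N₁, h₁⟩ := h₁
  obtain ⟨N₂, h₂⟩ := h₂
  refine ⟨max N₁ N₂, fun n hn x y => ?_⟩
  show (_ ∈ L₁ ∨ _ ∈ L₂) ↔ (_ ∈ L₁ ∨ _ ∈ L₂)
  rw [h₁ n (le_trans (le_max_left _ _) hn) x y, h₂ n (le_trans (le_max_right _ _) hn) x y]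

/-- T2b. -/
theorem stab_compl {L : Language A} {u : List A} (h : Stab L u) : Stab Lᶜ u := by
  obtain ⟨N, h⟩ := h
  refine ⟨N, fun n hn x y => ?_⟩
  show ¬ (_ ∈ L) ↔ ¬ (_ ∈ L)
  rw [h n hn x y]

end Vale.Agent.P329
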