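import Vale.Agent.P329.T.T0

namespace Vale.Agent.P329

variable {A : Type}

/-- T3. Threshold `N₁ + N₂ + 1`.  Forward: write `x ++ rep n u ++ y` as
`(x ++ rep N₁ u) ++ (rep (n - N₁) u ++ y)` (`rep_add`) and compare with `s₁ ++ s₂` by
`List.append_eq_append_iff`.  Either `s₁ = x ++ rep N₁ u ++ a'`: pump inside `s₁` with `h₁` at
exponent `N₁`; or `s₂ = c' ++ rep (n - N₁) u ++ y`: pump inside `s₂` with `h₂` at exponent
`n - N₁ ≥ N₂`.  Backward: write `x ++ rep (n + 1) u ++ y` as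
`(x ++ rep (N₁ + 1) u) ++ (rep (n - N₁) u ++ y)`; either `s₁ = x ++ rep (N₁ + 1) u ++ a'`
(use `h₁` at `N₁`), or `s₂ = c' ++ rep (n - N₁ - 1 + 1) u ++ y` (use `h₂` at `n - N₁ - 1 ≥ N₂`). -/
theorem stab_mul {L₁ L₂ : Language A} {u : List A} (h₁ : Stab L₁ u) (h₂ : Stab L₂ u) :
    Stab (L₁ * L₂) u := by
  obtain ⟨N₁, h₁⟩ := h₁
  obtain ⟨N₂, h₂⟩ := h₂
  refine ⟨N₁ + N₂ + 1, fun n hn x y => ?_⟩
  obtain ⟨m, rfl⟩ : ∃ m, n = N₁ + (m + 1) := ⟨n - N₁ - 1, by omega⟩
  have hm : N₂ ≤ m := by omega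
  have r1 : rep (N₁ + (m + 1)) u = rep N₁ u ++ rep (m + 1) u := rep_add _ _ _
  have r2 : rep (N₁ + (m + 1) + 1) u = rep N₁ u ++ rep (m + 1 + 1) u := by
    rw [show N₁ + (m + 1) + 1 = N₁ + (m + 1 + 1) by omega]
    exact rep_add _ _ _
  have r3 : rep (N₁ + (m + 1) + 1) u = rep (N₁ + 1) u ++ rep (m + 1) u := by
    rw [show N₁ + (m + 1) + 1 = (N₁ + 1) + (m + 1) by omega]
    exact rep_add _ _ _
  have r4 : rep (N₁ + (m + 1)) u = rep (N₁ + 1) u ++ rep m u := by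
    rw [show N₁ + (m + 1) = (N₁ + 1) + m by omega]
    exact rep_add _ _ _
  rw [Language.mem_mul, Language.mem_mul]
  constructor
  · rintro ⟨s₁, hs₁, s₂, hs₂, he⟩
    have he' : s₁ ++ s₂ = (x ++ rep N₁ u) ++ (rep (m + 1) u ++ y) := by
      rw [he, r1]
      simp only [List.append_assoc]
    rcases List.append_eq_append_iff.1 he' with ⟨a', e1, e2⟩ | ⟨c', e1, e2⟩
    · refine ⟨s₁, hs₁, a' ++ rep (m + 1 + 1) u ++ y, ?_, ?_⟩
      · rw [← h₂ (m + 1) (by omega) a' y]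
        rw [e2] at hs₂
        simpa only [List.append_assoc] using hs₂
      · have : s₁ ++ (a' ++ rep (m + 1 + 1) u ++ y) = (s₁ ++ a') ++ (rep (m + 1 + 1) u ++ y) := by
          simp only [List.append_assoc]
        rw [this, ← e1, r2]
        simp only [List.append_assoc]
    · refine ⟨x ++ rep (N₁ + 1) u ++ c', ?_, s₂, hs₂, ?_⟩
      · rw [← h₁ N₁ (le_refl _) x c']
        rw [e1] at hs₁
        exact hs₁
      · have : x ++ rep (N₁ + 1) u ++ c' ++ s₂ = x ++ rep (N₁ + 1) u ++ (c' ++ s₂) := by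
          simp only [List.append_assoc]
        rw [this, ← e2, r3]
        simp only [List.append_assoc]
  · rintro ⟨s₁, hs₁, s₂, hs₂, he⟩
    have he' : s₁ ++ s₂ = (x ++ rep (N₁ + 1) u) ++ (rep (m + 1) u ++ y) := by
      rw [he, r3]
      simp only [List.append_assoc]
    rcases List.append_eq_append_iff.1 he' with ⟨a', e1, e2⟩ | ⟨c', e1, e2⟩
    · refine ⟨s₁, hs₁, a' ++ rep m u ++ y, ?_, ?_⟩
      · rw [h₂ m hm a' y]
        rw [e2] at hs₂
        simpa only [List.append_assoc] using hs₂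
      · have : s₁ ++ (a' ++ rep m u ++ y) = (s₁ ++ a') ++ (rep m u ++ y) := by
          simp only [List.append_assoc]
        rw [this, ← e1, r4]
        simp only [List.append_assoc]
    · refine ⟨x ++ rep N₁ u ++ c', ?_, s₂, hs₂, ?_⟩
      · rw [h₁ N₁ (le_refl _) x c']
        rw [e1] at hs₁
        exact hs₁
      · have : x ++ rep N₁ u ++ c' ++ s₂ = x ++ rep N₁ u ++ (c' ++ s₂) := by
          simp only [List.append_assoc]
        rw [this, ← e2, r1]
        simp only [List.append_assoc]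

end Vale.Agent.P329
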