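import Vale.Agent.P329.T.T0

namespace Vale.Agent.P329

variable {A : Type}

/-- T4. Threshold `1`: `rep n u = rep (n - 1) u ++ u` (`rep_succ'`), apply `h` with left context
`x ++ rep (n - 1) u`. -/
theorem stab_of_synEq {L : Language A} {u : List A} (h : SynEq L u (u ++ u)) : Stab L u := by
  refine ⟨1, fun n hn x y => ?_⟩
  obtain ⟨m, rfl⟩ : ∃ m, n = m + 1 := ⟨n - 1, by omega⟩
  have := h (x ++ rep m u) y
  rw [rep_succ' (m + 1), rep_succ' m]
  simpa [List.append_assoc] using this

end Vale.Agent.P329
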