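import Vale.Agent.P329.T.T1
import Vale.Agent.P329.T.T2
import Vale.Agent.P329.T.T3
import Vale.Agent.P329.T.T4

namespace Vale.Agent.P329

variable {A : Type}

/-- T5a. Induction on `P`. -/
theorem stab_of_bodies (P : GRegex A) (u : List A) (h : SynAll P.bodies u (u ++ u)) :
    Stab P.lang u := by
  induction P with
  | zero => exact stab_zero u
  | one => exact stab_one u
  | letter a => exact stab_letter a u
  | union P Q ihP ihQ =>
    exact stab_add (ihP (fun K hK => h K (List.mem_append_left _ hK)))
      (ihQ (fun K hK => h K (List.mem_append_right _ hK)))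
  | concat P Q ihP ihQ =>
    exact stab_mul (ihP (fun K hK => h K (List.mem_append_left _ hK)))
      (ihQ (fun K hK => h K (List.mem_append_right _ hK)))
  | compl P ih => exact stab_compl (ih h)
  | star P _ => exact stab_of_synEq (h P (List.mem_singleton.mpr rfl))

/-- T5b. Induction on `P` (`GRegex.sh`, `max_le_iff`). -/
theorem bodies_sh (P : GRegex A) (h : P.sh ≤ 1) : ∀ K ∈ P.bodies, K.sh = 0 := by
  induction P with
  | zero => intro K hK; simp [GRegex.bodies] at hK
  | one => intro K hK; simp [GRegex.bodies] at hK
  | letter a => intro K hK; simp [GRegex.bodies] at hK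
  | union P Q ihP ihQ =>
    intro K hK
    have h' : max P.sh Q.sh ≤ 1 := h
    rw [max_le_iff] at h'
    rcases List.mem_append.mp hK with hK | hK
    · exact ihP h'.1 K hK
    · exact ihQ h'.2 K hK
  | concat P Q ihP ihQ =>
    intro K hK
    have h' : max P.sh Q.sh ≤ 1 := h
    rw [max_le_iff] at h'
    rcases List.mem_append.mp hK with hK | hK
    · exact ihP h'.1 K hK
    · exact ihQ h'.2 K hK
  | compl P ih => exact ih h
  | star P _ =>
    intro K hK
    have h' : P.sh + 1 ≤ 1 := h
    have hKP : K = P := List.mem_singleton.mp hK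
    rw [hKP]
    omega

end Vale.Agent.P329
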